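import Mathlib
import Vale.Agent.NagataCurves.Final

namespace Vale.Agent.Results.P279.RefinedNagata

open MvPolynomial Vale.Agent.NagataCurves

/-- Condition on a plane curve `G = 0` relative to a tuple `p` of points: it misses one of the
points, or for some index `j` the number `r * mult_{p_j}` is smaller than the sum of the squared
differences of the multiplicities over unordered pairs of indices plus `r` times the sum of
`n_q (n_q - 1)` over some finite set of further points `q` of multiplicity `n_q`. -/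
def Good {r : ℕ} (p : Fin r → P2) (G : MvPolynomial (Fin 3) ℂ) : Prop :=
  (∃ i, mult G (p i) = 0) ∨
    ∃ Q : Finset P2, (∀ q ∈ Q, ∀ i, q ≠ p i) ∧ ∃ j : Fin r,
      2 * (r : ℤ) * mult G (p j) <
        (∑ i, ∑ k, ((mult G (p i) : ℤ) - mult G (p k)) ^ 2) +
          2 * r * ∑ q ∈ Q, (mult G q : ℤ) * (mult G q - 1)

theorem result (r : ℕ) (hr : 10 ≤ r) :
    VeryGeneral r fun p =>
      (∀ (d : ℕ) (F : MvPolynomial (Fin 3) ℂ), 1 ≤ d → F ≠ 0 → F.IsHomogeneous d →
        (∀ G, Irreducible G → G ∣ F → Good p G) →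
        ∀ m : Fin r → ℕ, (∀ i, m i ≤ mult F (p i)) →
          ∑ i, (m i : ℝ) < d * Real.sqrt r) ∧
      (∀ (d : ℕ) (F : MvPolynomial (Fin 3) ℂ), F.IsHomogeneous d → Irreducible F →
        ∀ j : Fin r, 1 ≤ mult F (p j) → ∀ Q : Finset P2, (∀ q ∈ Q, ∀ i, q ≠ p i) →
          (∑ i, (mult F (p i) : ℤ) ^ 2) + ∑ q ∈ Q, (mult F q : ℤ) * (mult F q - 1) ≤
            (d : ℤ) ^ 2 + mult F (p j)) := by
  obtain ⟨Z, hZ1, hZ2⟩ := veryGeneral_of_generic (r := r)
    (P := fun p => (∀ i, (p i).rep 2 ≠ 0) ∧ AlgebraicIndependent ℚ (aff p))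
    (fun p h1 h2 => ⟨h1, h2⟩)
  refine ⟨Z, hZ1, fun p hp hpZ => ?_⟩
  obtain ⟨hz, ha⟩ := hZ2 p hp hpZ
  constructor
  · intro d F hd hF0 hF hgood m hm
    have h1 := of_components p (Good p)
      (fun G e he hG hirr hG' => component hr hp hz ha he hG hirr hG') F hF0 d hF hd hgood
    have h2 : ∑ i, (m i : ℝ) ≤ ((∑ i, mult F (p i) : ℕ) : ℝ) := by
      push_cast
      exact Finset.sum_le_sum fun i _ => by exact_mod_cast hm i
    exact lt_of_le_of_lt h2 h1
  · intro d F hF hirr j hj Q hQ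
    exact refined_int hp hz ha hF hirr j hj Q hQ

end Vale.Agent.Results.P279.RefinedNagata
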